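import Vale.Agent.P207.N4.Dim
import Vale.Agent.P207.N4.H722.GeoIn

/-!
# P207, line N3: `GeoX`, the remaining facts of the geometry over `GeoIn`

The rotations and the deck transformations of the discs and of the frames, the isometry of the deck
transformations, the base point, and the sum of the Busemann functions of the two ends of a
geodesic. (`H607/InX.lean` proves all of them for the universal cover.)
-/

open Set Filter Topology Metric
open scoped ContDiff

noncomputable section

namespace Vale.Agent.P207.N4

open Vale.Agent.P207.N3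

variable [Dim]

open Vale.Agent.P207.N4.H722 Vale.Agent.P207.N3.H722

variable {Γ X B : Type} [Group Γ] [MetricSpace X] [ProperSpace X] [MulAction Γ X]
  [IsIsometricSMul Γ X] [TopologicalSpace B] [CompactSpace B] [T2Space B] [MulAction Γ B]
  [ContinuousConstSMul Γ B]

/-- The remaining facts of the geometry. -/
structure GeoX {L : Leaf Γ X B} {V : Type} [NormedAddCommGroup V] [NormedSpace ℝ V]
    [FiniteDimensional ℝ V] (I : GeoIn L V) : Prop where
  /-- rotations of the tubes -/
  A_rot : ∀ a x s u, I.S.A (L.rot a x) (s, u) = I.S.A x (s, a u)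
  /-- deck transformations of the tubes -/
  A_smul : ∀ (g : Γ) x z, I.S.A (g • x) z = I.act g (I.S.A x z)
  E_rot : ∀ a x c, I.E (L.rot a x) c = I.E x (H76.ext a c)
  E_smul : ∀ (g : Γ) x c, I.E (g • x) c = fderiv ℝ (I.act g) (I.S.ft x) (I.E x c)
  /-- two frames at one point differ by an orthogonal map -/
  frames : ∀ x y, I.S.ft x = I.S.ft y → ∃ A : O3, ∀ c, I.E y c = I.E x (A c)
  act_one : ∀ q, I.act 1 q = q
  act_mul : ∀ g g' q, I.act (g * g') q = I.act g (I.act g' q)
  act_iso : ∀ g q v w, I.G (I.act g q) (fderiv ℝ (I.act g) q v) (fderiv ℝ (I.act g) q w)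
    = I.G q v w
  /-- the base point -/
  exists_base : ∃ x, ∀ ξ, I.b ξ (I.S.ft x) = 0
  /-- the sum of the Busemann functions of the two ends is minimal on the geodesic -/
  le : ∀ x q, L.lv x + L.lp x ≤ I.b (L.em x) q + I.b (L.ep x) q
  eq_line : ∀ x q, I.b (L.em x) q + I.b (L.ep x) q = L.lv x + L.lp x →
    I.S.line (L.em x) q = L.ep x

end Vale.Agent.P207.N4
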