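import Vale.Agent.P207.N4.Dim
import Vale.Agent.P207.N4.H265.GeoX
import Vale.Agent.P207.N4.H722.Disc
import Vale.Agent.P207.N4.H229.Bus

/-!
# P207, line N3, instance of `Bus`, part 1: `b`, `be`, `en`

Over `I : GeoIn L V` and `GeoX I`: the Busemann functions at the foot points and on the discs, the
ends of the geodesics through the points of the discs.
-/

open Set Filter Topology Metric
open scoped ContDiff

noncomputable section

set_option linter.unusedSectionVars false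

namespace Vale.Agent.P207.N4.H265

open Vale.Agent.P207.N3

variable [Dim]
open Vale.Agent.P207.N4.H722
open Vale.Agent.P207.N4.H76 (pk tl e0 sg)

variable {Γ X B : Type} [Group Γ] [MetricSpace X] [ProperSpace X] [MulAction Γ X]
  [IsIsometricSMul Γ X] [TopologicalSpace B] [CompactSpace B] [T2Space B] [MulAction Γ B]
  [ContinuousConstSMul Γ B] {L : Leaf Γ X B} {V : Type} [NormedAddCommGroup V] [NormedSpace ℝ V]
  [FiniteDimensional ℝ V] (I : GeoIn L V)

/-- the Busemann function of `ξ` at the foot point of `x` -/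
def bb (ξ : B) (x : X) : ℝ := I.b ξ (I.S.ft x)

/-- the Busemann function of `ξ` on the disc of `x` -/
def be (x : X) (ξ : B) (q : E2) : ℝ := I.b ξ (I.S.A x (0, q)) - I.b ξ (I.S.ft x)

/-- the end of the geodesic from `ξ` through the point `q` of the disc of `x` -/
def en (x : X) (ξ : B) (q : E2) : B := I.S.line ξ (I.S.A x (0, q))

theorem A_zero' (x : X) : I.S.A x (0, 0) = I.S.ft x := I.S.A_zero x

theorem mem_R3 {q : E2} (hq : q ∈ ball (0 : E2) 3) : q ∈ ball (0 : E2) I.S.R :=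
  I.S.mem_R (ball_subset_closedBall hq)

theorem b_cont' : Continuous fun p : B × V => I.b p.1 p.2 := by
  have h := I.b_jc.continuousOn
  rwa [continuousOn_univ] at h

/-! ### `b` -/

theorem bb_cont : Continuous fun p : B × X => bb I p.1 p.2 :=
  (b_cont' I).comp (continuous_fst.prodMk (I.S.ft_cont.comp continuous_snd))

theorem bb_em (x : X) : bb I (L.em x) x = L.lv x := I.b_lv x

theorem bb_ep (x : X) : bb I (L.ep x) x = L.lp x := by
  have h := I.b_lv (L.flip x)
  rw [GeoIn.em_flip, I.ft_flip] at h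
  exact h

theorem bb_flip (ξ : B) (x : X) : bb I ξ (L.flip x) = bb I ξ x := by
  rw [bb, bb, I.ft_flip]

theorem ft_rot (X₁ : GeoX I) (a : O2) (x : X) : I.S.ft (L.rot a x) = I.S.ft x := by
  have h := X₁.A_rot a x 0 0
  rwa [map_zero, A_zero', A_zero'] at h

theorem bb_rot (X₁ : GeoX I) (ξ : B) (a : O2) (x : X) : bb I ξ (L.rot a x) = bb I ξ x := by
  rw [bb, bb, ft_rot I X₁]

theorem bb_smul (g : Γ) (ξ : B) (x y : X) :
    bb I (g • ξ) (g • x) - bb I (g • ξ) (g • y) = bb I ξ x - bb I ξ y := by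
  obtain ⟨c, hc⟩ := I.b_act g ξ
  rw [bb, bb, bb, bb, I.act_ft, I.act_ft, hc, hc]
  ring

/-! ### `be` -/

theorem disc_jc : JC (fun (x : X) (q : E2) => I.S.A x (0, q)) (univ ×ˢ ball 0 3) := by
  have hO : IsOpen ((univ : Set X) ×ˢ ball (0 : E2) 3) := isOpen_univ.prod isOpen_ball
  have h1 : JC (fun (_ : X) (q : E2) => ((0, q) : ℝ × E2)) (univ ×ˢ ball 0 3) :=
    (JC.const hO 0).prodMk (JC.id hO)
  exact I.S.A_jc.comp' h1 fun p hp => ⟨mem_univ _, mem_univ _, mem_R3 I hp.2⟩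

theorem be_jc : JC (fun (p : X × B) q => be I p.1 p.2 q) (univ ×ˢ ball 0 3) := by
  have hO : IsOpen ((univ : Set (X × B)) ×ˢ ball (0 : E2) 3) := isOpen_univ.prod isOpen_ball
  have h1 : JC (fun (p : X × B) (q : E2) => I.S.A p.1 (0, q)) (univ ×ˢ ball 0 3) :=
    ((disc_jc I).pullback continuous_fst).mono hO fun p hp => ⟨mem_univ _, hp.2⟩
  have h2 : JC (fun (p : X × B) (q : V) => I.b p.2 q) univ := I.b_jc.pullback continuous_snd
  have h3 : JC (fun (p : X × B) (q : E2) => I.b p.2 (I.S.A p.1 (0, q))) (univ ×ˢ ball 0 3) :=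
    h2.comp' h1 fun _ _ => mem_univ _
  have h4 : Continuous fun p : X × B => I.b p.2 (I.S.ft p.1) :=
    (b_cont' I).comp (continuous_snd.prodMk (I.S.ft_cont.comp continuous_fst))
  exact h3.sub (JC.param' hO h4)

theorem be_zero (x : X) (ξ : B) : be I x ξ 0 = 0 := by
  rw [be, A_zero', sub_self]

theorem be_smul (X₁ : GeoX I) (g : Γ) (x : X) (ξ : B) (q : E2) :
    be I (g • x) (g • ξ) q = be I x ξ q := by
  obtain ⟨c, hc⟩ := I.b_act g ξ
  rw [be, be, X₁.A_smul, I.act_ft, hc, hc]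
  ring

theorem be_rot (X₁ : GeoX I) (a : O2) (x : X) (ξ : B) (q : E2) :
    be I (L.rot a x) ξ q = be I x ξ (a q) := by
  rw [be, be, X₁.A_rot, ft_rot I X₁]

theorem be_flip (x : X) (ξ : B) (q : E2) (hq : q ∈ ball (0 : E2) 3) :
    be I (L.flip x) ξ q = be I x ξ q := by
  rw [be, be, I.A_flip x q (mem_R3 I hq), I.ft_flip]

theorem gradient_be (x : X) (ξ : B) {q : E2} (hq : q ∈ ball (0 : E2) 3) :
    gradient (be I x ξ) q = I.mom x q (I.vel ξ (I.D x q)) := by
  rw [← I.gradient_b x ξ (mem_R3 I hq)]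
  have h1 : be I x ξ = fun t => I.b ξ (I.D x t) - I.b ξ (I.S.ft x) := rfl
  rw [h1, gradient, gradient, fderiv_sub_const]

theorem be_crit (x : X) : gradient (be I x (L.em x)) 0 = 0 := by
  rw [gradient_be I x _ (mem_ball_self (by norm_num)), I.D_zero, I.vel_eq invThm]
  refine ext_inner_right ℝ fun u => ?_
  rw [I.inner_mom, I.J_zero, I.D_zero, I.G_E, inner_zero_left, PiLp.inner_apply,
    Fin.sum_univ_succ]
  have a0 : e0 0 = 1 := rfl
  have a1 : ∀ i : Fin Dim.m, e0 (Fin.succ i) = 0 := fun i => rfl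
  have b0 : (pk 0 (I.r₀ • u)) 0 = 0 := rfl
  simp [a0, a1, b0]

/-! ### `en` -/

theorem en_cont : ContinuousOn (fun p : (X × B) × E2 => en I p.1.1 p.1.2 p.2)
    (univ ×ˢ ball 0 3) := by
  have h1 : ContinuousOn (fun p : X × E2 => I.S.A p.1 (0, p.2)) (univ ×ˢ ball 0 3) :=
    (disc_jc I).continuousOn
  have h2 : ContinuousOn (fun p : (X × B) × E2 => I.S.A p.1.1 (0, p.2)) (univ ×ˢ ball 0 3) :=
    h1.comp (f := fun p : (X × B) × E2 => ((p.1.1, p.2) : X × E2)) (by fun_prop)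
      fun p hp => ⟨mem_univ _, hp.2⟩
  have h3 : ContinuousOn (fun p : (X × B) × E2 => p.1.2) (univ ×ˢ ball 0 3) := by fun_prop
  exact I.S.line_cont.comp_continuousOn (h3.prodMk h2)

theorem en_em (x : X) (q : E2) (hq : q ∈ ball (0 : E2) 3) : en I x (L.em x) q = L.e x q := by
  rw [← I.e_eq x q (ball_subset_closedBall hq), en, H459.Slice.e, I.em_eq]

theorem en_smul (X₁ : GeoX I) (g : Γ) (x : X) (ξ : B) (q : E2) :
    en I (g • x) (g • ξ) q = g • en I x ξ q := by
  rw [en, en, X₁.A_smul, I.line_smul]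

theorem en_rot (X₁ : GeoX I) (a : O2) (x : X) (ξ : B) (q : E2) :
    en I (L.rot a x) ξ q = en I x ξ (a q) := by
  rw [en, en, X₁.A_rot]

theorem en_flip (x : X) (ξ : B) (q : E2) (hq : q ∈ ball (0 : E2) 3) :
    en I (L.flip x) ξ q = en I x ξ q := by
  rw [en, en, I.A_flip x q (mem_R3 I hq)]

theorem en_en (x : X) (ξ : B) (q : E2) : en I x (en I x ξ q) q = ξ := I.line_line _ _

theorem exists_fr (x : X) (ξ : B) (q : E2) :
    ∃ z, L.em z = ξ ∧ L.ep z = en I x ξ q ∧ ∀ ζ, bb I ζ z = bb I ζ x + be I x ζ q := by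
  obtain ⟨z, h1, h2, h3⟩ := I.exists_frame ξ (I.S.A x (0, q))
  refine ⟨z, h1, h3, fun ζ => ?_⟩
  rw [bb, bb, be, h2]
  ring

/-- the frame at the point `q` of the disc, with its foot point -/
theorem exists_fr' (x : X) (ξ : B) (q : E2) :
    ∃ z, L.em z = ξ ∧ I.S.ft z = I.D x q ∧ L.ep z = en I x ξ q :=
  I.exists_frame ξ (I.S.A x (0, q))

theorem le_bb (X₁ : GeoX I) (x z : X) :
    L.lv z + L.lp z ≤ bb I (L.em z) x + bb I (L.ep z) x := X₁.le z (I.S.ft x)

theorem eq_bb (X₁ : GeoX I) (x z : X) (q : E2)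
    (h : L.lv z + L.lp z = bb I (L.em z) x + bb I (L.ep z) x + be I x (L.em z) q +
      be I x (L.ep z) q) : L.ep z = en I x (L.em z) q := by
  refine (X₁.eq_line z (I.S.A x (0, q)) ?_).symm
  rw [h, bb, bb, be, be]
  ring

end Vale.Agent.P207.N4.H265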