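import Vale.Agent.P207.N4.Dim
import Vale.Agent.P207.N4.H265.BusI
import Vale.Agent.P207.N4.H306.MetI
import Vale.Agent.P207.N4.H473.LinkNN

/-!
# P207, line N3, instance of `Bus`, part 2: the Hessians on the discs, and the link

`z` is a frame over the point `q` of the disc of `x`, coming from `ξ`. `Pz I x q z` is the
derivative of the disc of `x` at `q`, projected to the disc of `z` along the geodesic.
-/

open Set Filter Topology Metric MeasureTheory
open scoped ContDiff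

noncomputable section

set_option linter.unusedSectionVars false

namespace Vale.Agent.P207.N4.H265

open Vale.Agent.P207.N3

variable [Dim]
open Vale.Agent.P207.N4.H722
open Vale.Agent.P207.N4.H76 (pk tl e0 sg)
open Ten (cj Si Sf NN hor)

variable {Γ X B : Type} [Group Γ] [MetricSpace X] [ProperSpace X] [MulAction Γ X]
  [IsIsometricSMul Γ X] [TopologicalSpace B] [CompactSpace B] [T2Space B] [MulAction Γ B]
  [ContinuousConstSMul Γ B]

/-! ### Hessians -/

theorem inner_hess {f : E2 → ℝ} {q : E2} (hf : DifferentiableAt ℝ (fderiv ℝ f) q) (a b : E2) :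
    inner ℝ (hess f q a) b = fderiv ℝ (fderiv ℝ f) q a b := by
  have h0 : gradient f = fun t => cv (fderiv ℝ f t) := funext fun t => gradient_eq f t
  have h1 : HasFDerivAt (gradient f) (cv.comp (fderiv ℝ (fderiv ℝ f) q)) q := by
    rw [h0]
    exact cv.hasFDerivAt.comp q hf.hasFDerivAt
  rw [hess, h1.fderiv, ContinuousLinearMap.comp_apply, inner_cv]

theorem hess_sub_const (f : E2 → ℝ) (c : ℝ) (q : E2) : hess (fun t => f t - c) q = hess f q := by
  unfold hess
  have h : gradient (fun t => f t - c) = gradient f := by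
    funext t
    rw [gradient, gradient, fderiv_sub_const]
  rw [h]

variable {L : Leaf Γ X B} {V : Type} [NormedAddCommGroup V] [NormedSpace ℝ V]
  [FiniteDimensional ℝ V] (I : GeoIn L V)

theorem b_smooth (ξ : B) : ContDiff ℝ ∞ (I.b ξ) := by
  rw [contDiff_iff_contDiffAt]
  intro v
  exact I.b_jc.contDiffAt (mem_univ (ξ, v))

/-- the derivative of `b_ξ + b_η` vanishes on the geodesic -/
theorem fderiv_bb (z : X) :
    fderiv ℝ (fun v => I.b (L.em z) v + I.b (L.ep z) v) (I.S.ft z) = 0 := by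
  have h1 := I.b_hasFDerivAt invThm (L.em z) (I.S.ft z)
  have h2 := I.b_hasFDerivAt invThm (L.ep z) (I.S.ft z)
  have h3 : HasFDerivAt (fun v => I.b (L.em z) v + I.b (L.ep z) v)
      (I.G (I.S.ft z) (I.vel (L.em z) (I.S.ft z)) + I.G (I.S.ft z) (I.vel (L.ep z) (I.S.ft z)))
      (I.S.ft z) := h1.add h2
  rw [h3.fderiv, ← I.line_eq z, I.vel_line invThm, map_neg, add_neg_cancel]

/-- the second derivative of `b_ξ + b_η` in the direction of the geodesic -/
theorem fderiv2_bb (z : X) :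
    fderiv ℝ (fderiv ℝ (fun v => I.b (L.em z) v + I.b (L.ep z) v)) (I.S.ft z) (I.E z e0) = 0 := by
  set F : V → ℝ := fun v => I.b (L.em z) v + I.b (L.ep z) v with hF
  have hFs : ContDiff ℝ ∞ F := (b_smooth I _).add (b_smooth I _)
  have hd : DifferentiableAt ℝ (fderiv ℝ F) (I.S.ft z) :=
    ((hFs.fderiv_right (m := ∞) (by simp)).differentiable (by simp)) _
  have h1 := I.hasDerivAt_psi_zero z
  have h2 : HasDerivAt (fun s => fderiv ℝ F (I.S.psi (L.em z) s (I.S.ft z)))
      (fderiv ℝ (fderiv ℝ F) (I.S.ft z) (I.E z e0)) 0 := by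
    refine HasFDerivAt.comp_hasDerivAt_of_eq (l := fderiv ℝ F) 0 hd.hasFDerivAt h1 ?_
    rw [I.S.psi_zero]
  have h3 : (fun s => fderiv ℝ F (I.S.psi (L.em z) s (I.S.ft z))) = fun _ => 0 := by
    funext s
    have h4 := fderiv_bb I (L.φ s z)
    rw [L.em_φ, GeoIn.ep_φ, I.ft_φ] at h4
    exact h4
  rw [h3] at h2
  exact h2.unique (hasDerivAt_const (0 : ℝ) (0 : V →L[ℝ] ℝ))

/-- the disc of `x` at `q`, projected to the disc of the frame `z` -/
def Pz (x : X) (q : E2) (z : X) : E2 →L[ℝ] E2 :=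
  (LinearMap.toContinuousLinearMap H76.tlL).comp
    (((I.EE z).symm : V →L[ℝ] E3).comp (I.J x q))

theorem Pz_apply (x : X) (q : E2) (z : X) (a : E2) :
    Pz I x q z a = tl ((I.EE z).symm (I.J x q a)) := rfl

/-- the decomposition of the tangent vectors of the disc -/
theorem J_eq (x : X) (q : E2) (z : X) (a : E2) : ∃ c : ℝ,
    I.J x q a = c • I.E z e0 + I.E z (pk 0 (Pz I x q z a)) := by
  set v := (I.EE z).symm (I.J x q a) with hv
  refine ⟨v 0, ?_⟩
  have h1 : I.E z v = I.J x q a := by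
    rw [← I.EE_apply, hv]
    exact (I.EE z).apply_symm_apply _
  have h2 : v = v 0 • e0 + pk 0 (tl v) := by
    rw [← H76.pk_zero_right, ← H76.pk_add, add_zero, zero_add, H76.pk_tl]
  rw [Pz_apply, ← hv, ← map_smul, ← map_add, ← h2, h1]

/-- **the Hessian of `b_ξ + b_η` on the disc** -/
theorem hess_be {M : Metr L} (H : HessIn I M) {x z : X} {q : E2} (hq : q ∈ ball (0 : E2) 3)
    (hz : I.S.ft z = I.D x q) (a b : E2) :
    inner ℝ ((hess (be I x (L.em z)) q + hess (be I x (L.ep z)) q) a) b =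
      inner ℝ (Sf M z (Pz I x q z a)) (Pz I x q z b) := by
  have hqR := mem_R3 I hq
  set F : V → ℝ := fun v => I.b (L.em z) v + I.b (L.ep z) v with hF
  have hFs : ContDiff ℝ ∞ F := (b_smooth I _).add (b_smooth I _)
  have hFd : ∀ v, DifferentiableAt ℝ F v := fun v => (hFs.differentiable (by simp)) v
  have hF2 : DifferentiableAt ℝ (fderiv ℝ F) (I.D x q) :=
    ((hFs.fderiv_right (m := ∞) (by simp)).differentiable (by simp)) _
  have hev : ∀ᶠ t in 𝓝 q, t ∈ ball (0 : E2) I.S.R := isOpen_ball.mem_nhds hqR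
  -- the two functions on the disc
  have hs : ∀ ξ : B, ContDiffAt ℝ ∞ (fun t => I.b ξ (I.D x t)) q := fun ξ =>
    (b_smooth I ξ).contDiffAt.comp q (I.D_smoothAt x hqR)
  have hsd : ∀ ξ : B, DifferentiableAt ℝ (fderiv ℝ fun t => I.b ξ (I.D x t)) q := fun ξ =>
    ((hs ξ).fderiv_right (m := ∞) (by simp)).differentiableAt (by simp)
  have h0 : ∀ ξ : B, hess (be I x ξ) q = hess (fun t => I.b ξ (I.D x t)) q := fun ξ =>
    hess_sub_const (fun t => I.b ξ (I.D x t)) (I.b ξ (I.S.ft x)) q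
  have h1 : inner ℝ ((hess (be I x (L.em z)) q + hess (be I x (L.ep z)) q) a) b =
      fderiv ℝ (fderiv ℝ fun t => F (I.D x t)) q a b := by
    rw [h0, h0, add_apply, inner_add_left, inner_hess (hsd _), inner_hess (hsd _)]
    have h2 : fderiv ℝ (fun t => F (I.D x t)) =ᶠ[𝓝 q]
        fun t => fderiv ℝ (fun t => I.b (L.em z) (I.D x t)) t +
          fderiv ℝ (fun t => I.b (L.ep z) (I.D x t)) t := by
      filter_upwards [hev] with t ht
      have h3 : ∀ ξ : B, DifferentiableAt ℝ (fun t => I.b ξ (I.D x t)) t := fun ξ =>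
        ((b_smooth I ξ).differentiable (by simp) _).comp t (I.D_diffAt x ht)
      exact fderiv_fun_add (h3 _) (h3 _)
    rw [h2.fderiv_eq, fderiv_fun_add (hsd _) (hsd _)]
    rfl
  -- the second derivative of the composition
  have h2 : fderiv ℝ (fun t => F (I.D x t)) =ᶠ[𝓝 q]
      fun t => (fderiv ℝ F (I.D x t)).comp (I.J x t) := by
    filter_upwards [hev] with t ht
    exact ((hFd _).hasFDerivAt.comp t (I.D_diffAt x ht).hasFDerivAt).fderiv
  have h3 : HasFDerivAt (fun t => fderiv ℝ F (I.D x t))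
      ((fderiv ℝ (fderiv ℝ F) (I.D x q)).comp (I.J x q)) q :=
    hF2.hasFDerivAt.comp q (I.D_diffAt x hqR).hasFDerivAt
  have h4 : HasFDerivAt (I.J x) (fderiv ℝ (I.J x) q) q :=
    (((I.J_smooth x).contDiffAt (isOpen_ball.mem_nhds hqR)).differentiableAt
      (by simp)).hasFDerivAt
  have h5 := h3.clm_comp h4
  have hzero : fderiv ℝ F (I.D x q) = 0 := by rw [← hz]; exact fderiv_bb I z
  rw [h1, h2.fderiv_eq, h5.fderiv]
  have h6 : ((((ContinuousLinearMap.compL ℝ E2 V ℝ) (fderiv ℝ F (I.D x q))).comp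
      (fderiv ℝ (I.J x) q) + ((ContinuousLinearMap.compL ℝ E2 V ℝ).flip (I.J x q)).comp
        ((fderiv ℝ (fderiv ℝ F) (I.D x q)).comp (I.J x q))) a) b =
      fderiv ℝ (fderiv ℝ F) (I.D x q) (I.J x q a) (I.J x q b) := by
    simp only [add_apply, ContinuousLinearMap.comp_apply, ContinuousLinearMap.compL_apply, hzero,
      ContinuousLinearMap.flip_apply, zero_apply, zero_add]
  refine h6.trans ?_
  -- the decomposition along the frame
  obtain ⟨c, hc⟩ := J_eq I x q z a
  obtain ⟨d, hd⟩ := J_eq I x q z b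
  have hsym : ∀ v w, fderiv ℝ (fderiv ℝ F) (I.D x q) v w = fderiv ℝ (fderiv ℝ F) (I.D x q) w v := by
    intro v w
    have h2 : (2 : WithTop ℕ∞) ≤ (∞ : WithTop ℕ∞) :=
      (WithTop.coe_le_coe.2 le_top : ((2 : ℕ∞) : WithTop ℕ∞) ≤ ((⊤ : ℕ∞) : WithTop ℕ∞))
    exact (hFs.contDiffAt.isSymmSndFDerivAt
      (by rw [minSmoothness_of_isRCLikeNormedField]; exact h2)).eq v w
  have he : ∀ w, fderiv ℝ (fderiv ℝ F) (I.D x q) (I.E z e0) w = 0 := by
    intro w
    rw [← hz, fderiv2_bb I z]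
    rfl
  have he' : ∀ w, fderiv ℝ (fderiv ℝ F) (I.D x q) w (I.E z e0) = 0 := fun w => by
    rw [hsym, he]
  rw [hc, hd]
  simp only [map_add, map_smul, add_apply, smul_apply, he, he', smul_zero, zero_add]
  rw [← hz]
  exact H.hess z _ _

/-! ### the derivative of the transition maps -/

/-- the point of the disc of `x` in the tube of the frame `z` -/
theorem cross_z {x z : X} {q : E2} (hq : q ∈ ball (0 : E2) 3) (hz : I.S.ft z = I.D x q) :
    ∃ w : E2 → E2, w q = 0 ∧ HasFDerivAt w (I.r₀⁻¹ • Pz I x q z) q ∧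
      ∀ᶠ t in 𝓝 q, w t ∈ ball (0 : E2) 3 ∧ en I x (L.em z) t = L.e z (w t) := by
  have hA0 : I.S.A z (0, 0) = I.S.ft z := I.S.A_zero z
  have hqR := mem_R3 I hq
  obtain ⟨T, G, h1, h2, h3, h4⟩ := I.S.cross H459.invThm (x₀ := x) (y₀ := z) (u₀ := q)
    hqR (s₀ := 0) I.S.zero_mem (by rw [hA0, hz]; rfl)
  have hGd : DifferentiableAt ℝ (G (x, z)) q := h1.differentiableAt h2
  have hG0 : G (x, z) q = (0, 0) := h3
  refine ⟨fun t => (G (x, z) t).2, by simp only [hG0], ?_, ?_⟩
  · -- the derivative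
    have hw : HasFDerivAt (fun t => (G (x, z) t).2)
        ((ContinuousLinearMap.snd ℝ ℝ E2).comp (fderiv ℝ (G (x, z)) q)) q := hGd.hasFDerivAt.snd
    refine hw.congr_fderiv ?_
    have hAz : HasFDerivAt (I.S.A z) (fderiv ℝ (I.S.A z) 0) (G (x, z) q) := by
      rw [hG0]
      exact (I.S.A_jc.differentiableAt (I.S.mem_S z 0 I.S.zero_mem)).hasFDerivAt
    have d1 := hAz.comp q hGd.hasFDerivAt
    have hid : (I.S.A z ∘ G (x, z)) =ᶠ[𝓝 q] I.D x := by
      filter_upwards [(isOpen_slice h1.isOpen (x, z)).mem_nhds h2] with t ht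
      exact (h4 _ ht).2.2
    have d3 := (d1.congr_of_eventuallyEq hid.symm).unique (I.D_diffAt x hqR).hasFDerivAt
    ext1 a
    have h9 := congrArg (fun A : E2 →L[ℝ] V => A a) d3
    simp only [ContinuousLinearMap.coe_comp, Function.comp_apply] at h9
    set g := fderiv ℝ (G (x, z)) q a with hg
    have h10 : I.E z (pk g.1 (I.r₀ • g.2)) = I.J x q a := by
      rw [← I.A_fderiv]
      exact h9
    have h11 : (I.EE z).symm (I.J x q a) = pk g.1 (I.r₀ • g.2) := by
      rw [← h10, ← I.EE_apply]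
      exact (I.EE z).symm_apply_apply _
    have h12 : Pz I x q z a = I.r₀ • g.2 := by rw [Pz_apply, h11, H76.tl_pk]
    change g.2 = I.r₀⁻¹ • Pz I x q z a
    rw [h12, smul_smul, inv_mul_cancel₀ I.r₀_pos.ne', one_smul]
  · have e1 : ∀ᶠ t in 𝓝 q, ((x, z), t) ∈ T := (isOpen_slice h1.isOpen (x, z)).mem_nhds h2
    have e2 : ∀ᶠ t in 𝓝 q, (G (x, z) t).2 ∈ ball (0 : E2) 3 := by
      have h5 : ContinuousAt (fun t => (G (x, z) t).2) q := hGd.continuousAt.snd
      refine h5.eventually (isOpen_ball.mem_nhds ?_)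
      change (G (x, z) q).2 ∈ ball (0 : E2) 3
      rw [hG0]
      exact mem_ball_self (by norm_num)
    filter_upwards [e1, e2] with t ht1 ht2
    refine ⟨ht2, ?_⟩
    obtain ⟨-, -, h6⟩ := h4 _ ht1
    simp only at h6
    rw [← I.e_eq z _ (ball_subset_closedBall ht2), H459.Slice.e, I.em_eq, en, ← h6,
      I.S.line_iff]
    have h7 := I.S.A_psi z (G (x, z) t).1 (G (x, z) t).2 (mem_R3 I ht2)
    rw [Prod.mk.eta, I.em_eq] at h7
    refine ⟨-(G (x, z) t).1, ?_⟩
    rw [h7, ← I.S.psi_add, neg_add_cancel, I.S.psi_zero]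

/-- **the derivative of `sgm`** -/
theorem hasFDerivAt_sgm {x y z : X} {q : E2} (hq : q ∈ ball (0 : E2) 3)
    (hz : I.S.ft z = I.D x q) (hem : L.em z = L.em y) {v : E2} (hv : v ∈ ball (0 : E2) 3)
    (he : L.e y v = L.ep z) :
    HasFDerivAt (sgm L (en I) x y)
      ((fderiv ℝ (L.τ z y) 0).comp (I.r₀⁻¹ • Pz I x q z)) q := by
  obtain ⟨w, h1, h2, h3⟩ := cross_z I hq hz
  have h4 : sgm L (en I) x y =ᶠ[𝓝 q] fun t => L.τ z y (w t) := by
    filter_upwards [h3] with t ht
    rw [sgm, ← hem, ht.2]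
    rfl
  have h0 : (0 : E2) ∈ L.dm z y := Ten.dm_zero' hv he
  have h5 : HasFDerivAt (L.τ z y) (fderiv ℝ (L.τ z y) 0) (w q) := by
    rw [h1]
    exact (Ten.tau_diff hem h0).hasFDerivAt
  exact (h5.comp q h2).congr_of_eventuallyEq h4

end Vale.Agent.P207.N4.H265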